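import Vale.Agent.P097.H699.Punct

/-!
# P097, case [d], row D1: Schottky and Borel-Caratheodory for `log (σ / w)`

`σ` is a holomorphic function on `|w| < r` with `σ 0 = 0`, `σ' 0 = 1`, `σ w ≠ 0` for `w ≠ 0`,
`σ ≠ ±1`, `σ` odd.  Then `σ w = w exp (λ w)` with `|λ w| ≤ 32 (1 + log (C₁ / r)) (|w| / r)²` on
`|w| ≤ r / 4`.
-/

set_option linter.all false

open Complex Metric Filter Topology Set

namespace Vale.Agent.P097.H456.D1

open Vale.Agent.P097.H699

/-- the class of `σ` -/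
structure Sg (r : ℝ) (s : ℂ → ℂ) : Prop where
  r0 : 0 < r
  df : DifferentiableOn ℂ s (ball 0 r)
  z : s 0 = 0
  d : deriv s 0 = 1
  nz : ∀ w ∈ ball (0 : ℂ) r, w ≠ 0 → s w ≠ 0
  n1 : ∀ w ∈ ball (0 : ℂ) r, s w ≠ 1
  n2 : ∀ w ∈ ball (0 : ℂ) r, s w ≠ -1

/-- the Schottky constant for `σ` on the half disc -/
noncomputable def C1 : ℝ := 2 * SB 1 (1 / 2) + 1

theorem one_le_C1 : 1 ≤ C1 := by
  have := SB_pos 1 (1 / 2)
  unfold C1; linarith

/-- Schottky for `±1` -/
theorem schottky_pm {f : ℂ → ℂ} {c : ℂ} {R ρ a : ℝ}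
    (hf : DifferentiableOn ℂ f (ball c R)) (h0 : ∀ z ∈ ball c R, f z ≠ 1)
    (h1 : ∀ z ∈ ball c R, f z ≠ -1) (hρR : ρ < R) (ha : ‖f c‖ ≤ a)
    {z : ℂ} (hz : z ∈ closedBall c ρ) : ‖f z‖ ≤ 2 * SB (a + 1) (ρ / R) + 1 := by
  have hd : DifferentiableOn ℂ (fun z => (f z + 1) / 2) (ball c R) :=
    (hf.add_const 1).div_const 2
  have key := schottky (f := fun z => (f z + 1) / 2) (a := a + 1) hd
    (fun z hz h => h1 z hz (by linear_combination 2 * h))
    (fun z hz h => h0 z hz (by linear_combination 2 * h)) hρR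
    (by
      rw [norm_div]
      have h2 : ‖f c + 1‖ ≤ a + 1 := (norm_add_le _ _).trans (by simpa using ha)
      have h3 : ‖(2 : ℂ)‖ = 2 := by simp
      have h4 : 0 ≤ ‖f c + 1‖ := norm_nonneg _
      rw [h3]; linarith) hz
  rw [norm_div] at key
  have h3 : ‖(2 : ℂ)‖ = 2 := by simp
  rw [h3, div_le_iff₀ (by norm_num)] at key
  have h5 : f z = (f z + 1) - 1 := by ring
  calc ‖f z‖ = ‖(f z + 1) - 1‖ := by rw [← h5]
    _ ≤ ‖f z + 1‖ + ‖(1 : ℂ)‖ := norm_sub_le _ _
    _ ≤ _ := by rw [norm_one]; linarith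

theorem Sg.norm_le {r : ℝ} {s : ℂ → ℂ} (S : Sg r s) {w : ℂ} (hw : ‖w‖ ≤ r / 2) : ‖s w‖ ≤ C1 := by
  have := schottky_pm (ρ := r / 2) (a := 0) S.df S.n1 S.n2 (by linarith [S.r0])
    (by rw [S.z, norm_zero]) (z := w) (by rwa [mem_closedBall_zero_iff])
  have e : r / 2 / r = 1 / 2 := by
    have := S.r0.ne'
    field_simp
  rw [e, zero_add] at this
  exact this

/-- Schwarz lemma of order two -/
theorem schwarz2 {f : ℂ → ℂ} {R B : ℝ} (hf : DifferentiableOn ℂ f (ball 0 R))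
    (hB : ∀ z ∈ ball (0 : ℂ) R, ‖f z‖ ≤ B) (h0 : f 0 = 0) (h1 : deriv f 0 = 0) {z : ℂ}
    (hz : z ∈ ball (0 : ℂ) R) : ‖f z‖ ≤ B * (‖z‖ / R) ^ 2 := by
  have hR : 0 < R := (norm_nonneg z).trans_lt (mem_ball_zero_iff.1 hz)
  have hd : HasDerivAt f 0 0 := by
    have h2 := (hf.differentiableAt (isOpen_ball.mem_nhds (mem_ball_self hR))).hasDerivAt
    rwa [h1] at h2
  have := dist_le_mul_div_pow_of_mapsTo_ball_of_isLittleO (f := f) (c := 0) (z := z) (R₁ := R)
    (R₂ := B) (n := 1) hf (fun x hx => by rw [mem_closedBall, h0, dist_zero_right]; exact hB x hx)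
    (by
      have h2 := hd.isLittleO
      simp only [smul_zero, sub_zero] at h2
      refine (h2.trans_isBigO ?_)
      simp only [pow_one]
      have h3 := (Asymptotics.isBigO_refl (fun w : ℂ => w - 0) (𝓝 (0 : ℂ))).norm_right
      simpa using h3) hz
  rw [h0, dist_zero_right, dist_zero_right] at this
  exact this

/-- **D1** -/
theorem Sg.exists_log {r : ℝ} {s : ℂ → ℂ} (S : Sg r s) :
    ∃ l : ℂ → ℂ, DifferentiableOn ℂ l (ball 0 r) ∧ l 0 = 0 ∧
      (∀ w ∈ ball (0 : ℂ) r, s w = w * exp (l w)) ∧ 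
      (∀ w : ℂ, ‖w‖ ≤ r / 4 → ‖l w‖ ≤ 8 * (1 + Real.log (2 * C1 / r)) * (‖w‖ / r)) := by
  have hr := S.r0
  have h0m : (0 : ℂ) ∈ ball (0 : ℂ) r := mem_ball_self hr
  have hC1 := one_le_C1
  set F : ℂ → ℂ := dslope s 0 with hF
  have hFd : DifferentiableOn ℂ F (ball 0 r) :=
    (differentiableOn_dslope (isOpen_ball.mem_nhds h0m)).2 S.df
  have hF0 : F 0 = 1 := by rw [hF, dslope_same, S.d]
  have hFe : ∀ w, s w = w * F w := by
    intro w
    have := sub_smul_dslope s 0 w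
    simp only [sub_zero, S.z, smul_eq_mul] at this
    exact this.symm
  have hFne : ∀ w ∈ ball (0 : ℂ) r, F w ≠ 0 := by
    intro w hw h
    by_cases h1 : w = 0
    · rw [h1, hF0] at h; exact one_ne_zero h
    · exact S.nz w hw h1 (by rw [hFe, h, mul_zero])
  obtain ⟨l, hl, hl0, hle⟩ := H699.exists_log hr hFd hFne (a := 0) (by rw [exp_zero, hF0])
  refine ⟨l, hl, hl0, fun w hw => by rw [hle w hw, hFe], ?_⟩
  -- bound of `F` on the half disc
  have hFb : ∀ w ∈ ball (0 : ℂ) (r / 2), ‖F w‖ ≤ 2 * C1 / r := by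
    have hcl : DifferentiableOn ℂ F (closedBall 0 (r / 2)) :=
      hFd.mono (closedBall_subset_ball (by linarith))
    have hdc : DiffContOnCl ℂ F (ball 0 (r / 2)) := hcl.diffContOnCl_ball Subset.rfl
    intro w hw
    refine norm_le_of_forall_mem_frontier_norm_le isBounded_ball hdc (C := 2 * C1 / r) ?_
      (subset_closure hw)
    intro x hx
    rw [frontier_ball (0 : ℂ) (by positivity : r / 2 ≠ 0), mem_sphere_zero_iff_norm] at hx
    have h1 := S.norm_le (w := x) hx.le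
    rw [hFe, norm_mul, hx] at h1
    rw [le_div_iff₀ hr]
    linarith
  have hpos : 0 < 2 * C1 / r := by positivity
  have h1le : 1 ≤ 2 * C1 / r := by
    have := hFb 0 (mem_ball_self (by positivity))
    rwa [hF0, norm_one] at this
  have hlog : 0 ≤ Real.log (2 * C1 / r) := Real.log_nonneg h1le
  set M := 1 + Real.log (2 * C1 / r) with hM
  have hM0 : 0 < M := by linarith
  have hmaps : MapsTo l (ball 0 (r / 2)) {z : ℂ | z.re ≤ M} := by
    intro w hw
    have hw' : w ∈ ball (0 : ℂ) r := ball_subset_ball (by linarith) hw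
    have h2 := hFb w hw
    rw [← hle w hw', Complex.norm_exp] at h2
    have h3 := (Real.le_log_iff_exp_le hpos).2 h2
    show (l w).re ≤ M
    linarith
  intro w hw
  have hwb : w ∈ ball (0 : ℂ) (r / 2) := by rw [mem_ball_zero_iff]; linarith
  have := borelCaratheodory_zero hM0 (hl.mono (ball_subset_ball (by linarith))) hmaps
    (by positivity) hwb hl0
  refine this.trans ?_
  have h4 : r / 4 ≤ r / 2 - ‖w‖ := by linarith
  have h5 : 0 ≤ ‖w‖ := norm_nonneg w
  rw [div_le_iff₀ (by linarith)]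
  have h6 : 8 * M * (‖w‖ / r) * (r / 4) ≤ 8 * M * (‖w‖ / r) * (r / 2 - ‖w‖) :=
    mul_le_mul_of_nonneg_left h4 (by positivity)
  refine le_trans (le_of_eq ?_) h6
  have := hr.ne'
  field_simp
  ring

/-- **D1** for odd `σ` -/
theorem Sg.exists_log2 {r : ℝ} {s : ℂ → ℂ} (S : Sg r s)
    (ho : ∀ w ∈ ball (0 : ℂ) r, s (-w) = - s w) :
    ∃ l : ℂ → ℂ, DifferentiableOn ℂ l (ball 0 r) ∧ l 0 = 0 ∧ (∀ w ∈ ball (0 : ℂ) r, l (-w) = l w) ∧
      (∀ w ∈ ball (0 : ℂ) r, s w = w * exp (l w)) ∧ 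
      (∀ w : ℂ, ‖w‖ ≤ r / 4 → ‖l w‖ ≤ 32 * (1 + Real.log (2 * C1 / r)) * (‖w‖ / r) ^ 2) := by
  obtain ⟨l, hl, hl0, hle, hlb⟩ := S.exists_log
  have hr := S.r0
  have h0m : (0 : ℂ) ∈ ball (0 : ℂ) r := mem_ball_self hr
  have hneg : ∀ w ∈ ball (0 : ℂ) r, -w ∈ ball (0 : ℂ) r := by
    intro w hw; rw [mem_ball_zero_iff] at *; rwa [norm_neg]
  -- evenness
  have hev : ∀ w ∈ ball (0 : ℂ) r, l (-w) = l w := by
    have hln : DifferentiableOn ℂ (fun w => l (-w)) (ball 0 r) :=
      hl.comp differentiableOn_id.neg (fun w hw => hneg w hw)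
    have hexp : ∀ w ∈ ball (0 : ℂ) r, exp (l (-w) - l w) = 1 := by
      have : ∀ w ∈ ball (0 : ℂ) r, w ≠ 0 → exp (l (-w) - l w) = 1 := by
        intro w hw h0
        have h1 := ho w hw
        rw [hle w hw, hle _ (hneg w hw)] at h1
        have h2 : exp (l (-w)) = exp (l w) := by
          have h3 : w * (exp (l (-w)) - exp (l w)) = 0 := by linear_combination -h1
          rcases mul_eq_zero.1 h3 with h | h
          · exact absurd h h0
          · exact sub_eq_zero.1 h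
        rw [exp_sub, h2, div_self (exp_ne_zero _)]
      intro w hw
      by_cases h0 : w = 0
      · rw [h0, neg_zero, sub_self, exp_zero]
      · exact this w hw h0
    have hd : DifferentiableOn ℂ (fun w => l (-w) - l w) (ball 0 r) := hln.sub hl
    have hder : ∀ w ∈ ball (0 : ℂ) r, deriv (fun w => l (-w) - l w) w = 0 := by
      intro w hw
      have h1 : (fun w => exp (l (-w) - l w)) =ᶠ[𝓝 w] fun _ => 1 := by
        filter_upwards [isOpen_ball.mem_nhds hw] with x hx using hexp x hx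
      have h2 : HasDerivAt (fun w => l (-w) - l w) (deriv (fun w => l (-w) - l w) w) w :=
        (hd.differentiableAt (isOpen_ball.mem_nhds hw)).hasDerivAt
      have h3 := h2.cexp.deriv
      rw [h1.deriv_eq, deriv_const] at h3
      rcases mul_eq_zero.1 h3.symm with h | h
      · exact absurd h (exp_ne_zero _)
      · exact h
    intro w hw
    have := (convex_ball (0 : ℂ) r).is_const_of_fderivWithin_eq_zero (𝕜 := ℂ) (f := fun w => l (-w) - l w) hd
      (fun x hx => by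
        have hfd : fderivWithin ℂ (fun w => l (-w) - l w) (ball 0 r) x =
            fderiv ℂ (fun w => l (-w) - l w) x := fderivWithin_of_isOpen isOpen_ball hx
        rw [hfd]
        ext
        simpa using hder x hx) hw h0m
    simp only [neg_zero, sub_self] at this
    exact sub_eq_zero.1 this
  refine ⟨l, hl, hl0, hev, hle, ?_⟩
  have hM0 : 0 ≤ 1 + Real.log (2 * C1 / r) := by
    by_contra hc
    push Not at hc
    have h1 := hlb ((r / 4 : ℝ) : ℂ) (by
      rw [Complex.norm_real, Real.norm_eq_abs, abs_of_pos (by positivity)])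
    have h2 : 0 < ‖((r / 4 : ℝ) : ℂ)‖ / r := by
      rw [Complex.norm_real, Real.norm_eq_abs, abs_of_pos (by positivity)]
      positivity
    have h3 := norm_nonneg (l ((r / 4 : ℝ) : ℂ))
    nlinarith
  set M := 1 + Real.log (2 * C1 / r) with hM
  have hB : ∀ z ∈ ball (0 : ℂ) (r / 4), ‖l z‖ ≤ 2 * M := by
    intro z hz
    have hz' := (mem_ball_zero_iff.1 hz).le
    refine (hlb z hz').trans ?_
    have h1 : ‖z‖ / r ≤ 1 / 4 := by
      rw [div_le_iff₀ hr]; linarith
    have : 8 * M * (‖z‖ / r) ≤ 8 * M * (1 / 4) := mul_le_mul_of_nonneg_left h1 (by positivity)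
    linarith
  have hd0 : deriv l 0 = 0 := by
    have h1 : HasDerivAt l (deriv l 0) 0 :=
      (hl.differentiableAt (isOpen_ball.mem_nhds h0m)).hasDerivAt
    have h2 : HasDerivAt (fun w => l (-w)) (deriv l 0 * -1) 0 := by
      have h1' : HasDerivAt l (deriv l 0) (-(0 : ℂ)) := by rwa [neg_zero]
      exact h1'.comp (0 : ℂ) (hasDerivAt_neg (0 : ℂ))
    have h3 : (fun w => l (-w)) =ᶠ[𝓝 0] l := by
      filter_upwards [isOpen_ball.mem_nhds h0m] with x hx using hev x hx
    have h4 := (h1.congr_of_eventuallyEq h3).unique h2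
    linear_combination h4 / 2
  have hsub : ball (0 : ℂ) (r / 4) ⊆ ball 0 r := ball_subset_ball (by linarith)
  have hin : ∀ w : ℂ, ‖w‖ < r / 4 → ‖l w‖ ≤ 32 * M * (‖w‖ / r) ^ 2 := by
    intro w hw
    refine (schwarz2 (hl.mono hsub) hB hl0 hd0 (mem_ball_zero_iff.2 hw)).trans (le_of_eq ?_)
    have := hr.ne'
    field_simp
    ring
  intro w hw
  rcases lt_or_eq_of_le hw with h | h
  · exact hin w h
  · have h1 : ‖l w‖ ≤ 2 * M := by
      refine (hlb w hw).trans (le_of_eq ?_)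
      rw [h]
      have := hr.ne'
      field_simp
      ring
    refine h1.trans (le_of_eq ?_)
    rw [h]
    have := hr.ne'
    field_simp
    ring

end Vale.Agent.P097.H456.D1
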